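import Vale.Agent.P154.R4.X4.X4R0
import Vale.Agent.P154.R4.X4.X4R1

namespace Vale.Agent.P154

set_option maxRecDepth 1000000
set_option maxHeartbeats 4000000

def x4Rows : List (List ℤ) := x4R0 ++ x4R1

theorem x4Cols_ok : chkCols x4Rows (x4Ls.map (cmbT t7F)) = true := by decide +kernel

end Vale.Agent.P154
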