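import Vale.Agent.P154.R4.X4.X4C

namespace Vale.Agent.P154

set_option maxRecDepth 1000000
set_option maxHeartbeats 4000000

open Finset

theorem x4_rowpos : ∀ v ∈ x4Rows, RowPos x4Gs v := by
  have h0 := rowPos_of_kron x4W x4M x4V 120 x4Gs x4Npk x4Npk_eq x4Side x4R0 x4R0_ok
  have h1 := rowPos_of_kron x4W x4M x4V 120 x4Gs x4Npk x4Npk_eq x4Side x4R1 x4R1_ok
  intro v hv
  simp only [x4Rows, List.mem_append] at hv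
  rcases hv with h | h
  · exact h0 v h
  · exact h1 v h

theorem x4_pos (s0 s1 s2 s3 t0 t1 t2 t3 : ℝ) (hs0 : 0 ≤ s0) (hs1 : 0 ≤ s1) (hs2 : 0 ≤ s2) (hs3 : 0 ≤ s3)
    (ht0 : 0 ≤ t0) (ht1 : 0 ≤ t1) (ht2 : 0 ≤ t2) (ht3 : 0 ≤ t3) :
    0 ≤ dotRR
        ((dgS x4Ld ++ x4Xs).map (fun L => sm 7 L (s0 + s1 + s2 + s3) (s0 + s1 + s2) (s0 + s1) s0
          (4 * s0 + 3 * s1 + 2 * s2 + s3)))
        ((dgT x4Ld ++ x4Xt).map (fun L => sm 7 L (10 * t0 + 9 * t1 + 8 * t2 + 7 * t3)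
          (10 * t0 + 9 * t1 + 8 * t2 + t3) (10 * t0 + 9 * t1 + 2 * t2 + t3)
          (10 * t0 + 3 * t1 + 2 * t2 + t3) (4 * t0 + 3 * t1 + 2 * t2 + t3))) :=
  posF 7 _ _ _ _ _ _ _ _ _ _ (ms7.map (monoR s0 s1 s2 s3)) (ms7.map (monoR t0 t1 t2 t3))
    (monoR_nonneg s0 s1 s2 s3 hs0 hs1 hs2 hs3 ms7) (monoR_nonneg t0 t1 t2 t3 ht0 ht1 ht2 ht3 ms7)
    t7F t7G (t7F_good s0 s1 s2 s3) (t7G_good t0 t1 t2 t3) x4Ls x4Lt (by decide +kernel) x4Ls_has x4Lt_has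
    x4Rows x4Cols_ok x4_rowpos

theorem x4_master (a b : Fin 4 → ℝ) (ha0 : ∑ i, a i = 0) (ha : ∀ i, -1 ≤ a i) (hb0 : ∑ i, b i = 0)
    (hb : ∀ i, -(3 / 5) ≤ b i) :
    0 ≤ ∑ σ : Equiv.Perm (Fin 4),
        sm 7 x4Ld (120 * uQ a (fun i => b (σ i)) 0) (120 * uQ a (fun i => b (σ i)) 1)
          (120 * uQ a (fun i => b (σ i)) 2) (120 * uQ a (fun i => b (σ i)) 3) 48
      + dotRR (x4Xs.map (fun l => sm 7 l (1 + a 0) (1 + a 1) (1 + a 2) (1 + a 3) 4))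
          (x4Xt.map (fun l => sm 7 l (30 * (1 + b 0)) (30 * (1 + b 1)) (30 * (1 + b 2))
            (30 * (1 + b 3)) 12)) :=
  master2 7 x4Ld x4Xs x4Xt x4_pos (by decide) a b ha0 ha hb0 hb

end Vale.Agent.P154
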